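import Vale.Agent.P235.R2.H341.CapDefs
import Vale.Agent.P235.H105.Hop

set_option linter.all false

/-! Connected induced subgraphs of plane maps. -/

namespace Vale.Agent.P235.H341W

open Set SimpleGraph Vale.Agent.P235

attribute [local instance] finite_dart

/-- a face with all its vertices in `S` stays a face -/
theorem face_copy {V : Type} [Finite V] {G : SimpleGraph V} {σ : Equiv.Perm G.Dart} {S : Set V}
    (fst : ∀ d, (σ d).fst = d.fst) (d : G.Dart) (hS : onFace σ d ⊆ S) (n : ℕ) :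
    ∃ a b : (G.induce S).Dart, upDart a = d ∧ upDart b = (faceNext σ ^ n) d ∧
      (faceNext (indRot σ S)).SameCycle a b := by
  have hf : ∀ e, (faceNext σ).SameCycle d e → e.fst ∈ S := fun e he => hS ⟨e, he, rfl⟩
  have hr : ∀ e, (faceNext σ).SameCycle d e → e ∈ Set.range (upDart (G := G) (S := S)) := by
    intro e he
    rw [mem_range_upDart]
    refine ⟨hf e he, ?_⟩
    have h1 := hf (faceNext σ e) (Equiv.Perm.sameCycle_apply_right.2 he)
    rwa [faceNext_fst fst] at h1
  induction n with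
  | zero =>
    obtain ⟨a, ha⟩ := hr d (Equiv.Perm.SameCycle.refl _ _)
    exact ⟨a, a, ha, ha, Equiv.Perm.SameCycle.refl _ _⟩
  | succ n ih =>
    obtain ⟨a, b, ha, hb, hab⟩ := ih
    have h1 : (faceNext σ).SameCycle d ((faceNext σ ^ (n + 1)) d) :=
      ⟨((n + 1 : ℕ) : ℤ), by rw [zpow_natCast]⟩
    have h2 : (faceNext σ ^ (n + 1)) d = σ (upDart b.symm) := by
      rw [pow_succ', Equiv.Perm.mul_apply, ← hb, faceNext_apply, upDart_symm]
    have h4 := hr _ h1
    rw [h2] at h4 h1
    have h5 : retTime σ (upDart (G := G) (S := S)) b.symm = 1 := by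
      have h6 := retTime_min σ (upDart (G := G) (S := S)) b.symm one_pos (by rw [pow_one]; exact h4)
      have h7 := retTime_pos σ (upDart (G := G) (S := S)) b.symm
      omega
    refine ⟨a, faceNext (indRot σ S) b, ha, ?_, Equiv.Perm.sameCycle_apply_right.2 hab⟩
    rw [faceNext_apply, upDart_indRot, h5, pow_one, h2]

/-- the induced rotation system of a connected induced subgraph of a plane map is plane -/
theorem indRot_plane {V : Type} [Finite V] {G : SimpleGraph V} {σ : Equiv.Perm G.Dart} {S : Set V}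
    (hc : G.Connected) (hσ : PlaneMap G σ) (hK : (G.induce S).Connected)
    (hne : Nonempty (G.induce S).Dart) : PlaneMap (G.induce S) (indRot σ S) := by
  have hz : ∀ (_ : Fintype G.Dart) (_ : DecidableEq V) (z : G.Dart → ZMod 2),
      (∀ d : G.Dart, z d.symm = z d) →
      (∀ d : G.Dart, z d ≠ 0 → d.fst ∈ S) →
      (∀ v, ∑ d : G.Dart, (if d.fst = v then z d else 0) = 0) →
      ∃ u : G.Dart → ZMod 2, (∀ d, u (faceNext σ d) = u d) ∧ ∀ d, z d = u d + u d.symm :=
      fun i1 i2 z h1 _ h2 => cycStmt V G σ hc hσ i1 i2 z h1 h2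
  refine SurfMap.plane hK ⟨indRot_fst hσ.fst, fun a b hab => ?_, ?_⟩
  · exact retPerm_sameCycle σ upDart_injective (hσ.cyc _ _ (congrArg Subtype.val hab))
  · rw [add_zero]
    exact induced_euler hK hne hz

/-- the induced map keeps every face all whose vertices lie in `S` -/
theorem indRot_face {V : Type} [Finite V] {G : SimpleGraph V} {σ : Equiv.Perm G.Dart} {S : Set V}
    (fst : ∀ d, (σ d).fst = d.fst) (d : G.Dart) (hS : onFace σ d ⊆ S) :
    ∃ a : (G.induce S).Dart, upDart a = d ∧
      ∀ v : S, v.1 ∈ onFace σ d → v ∈ onFace (indRot σ S) a := by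
  obtain ⟨a, _, ha, _, _⟩ := face_copy fst d hS 0
  refine ⟨a, ha, ?_⟩
  rintro v ⟨e, he, hev⟩
  obtain ⟨n, hn⟩ := exists_pow_face he
  obtain ⟨a', b, ha', hb, hab⟩ := face_copy fst d hS n
  have h1 : a' = a := upDart_injective (ha'.trans ha.symm)
  subst h1
  refine ⟨b, hab, ?_⟩
  apply Subtype.ext
  rw [← upDart_fst, hb, hn, hev]

theorem rowInd : RowInd := by
  intro V _ G σ S hG hσ hK hne
  refine ⟨indRot σ S, indRot_plane hG hσ hK hne, fun d₀ hd₀ => ?_⟩
  obtain ⟨a, _, ha⟩ := indRot_face hσ.fst d₀ hd₀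
  exact ⟨a, ha⟩

end Vale.Agent.P235.H341W
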