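import Vale.Agent.P235.R2.H341.CapDefs
import Vale.Agent.P235.R2.H680.Star

set_option linter.all false

/-! A new vertex can be joined to any vertices of one face of a plane map. -/

namespace Vale.Agent.P235.H341W

open Set Vale.Agent.P235 Vale.Agent.P235.Tight

attribute [local instance] finite_dart

/-- old and new darts of `capG G T`: `inr (inl t)` goes from `t` to the new vertex, `inr (inr t)`
from the new vertex to `t` -/
def toC {V : Type} (G : SimpleGraph V) (T : Set V) : G.Dart ⊕ (T ⊕ T) → (capG G T).Dart
  | .inl d => ⟨(some d.fst, some d.snd), d.adj⟩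
  | .inr (.inl t) => ⟨(some t.1, none), t.2⟩
  | .inr (.inr t) => ⟨(none, some t.1), t.2⟩

theorem toC_bij {V : Type} (G : SimpleGraph V) (T : Set V) : Function.Bijective (toC G T) := by
  constructor
  · rintro (d | t | t) (d' | t' | t') h
    · have h1 : ((some d.fst, some d.snd) : Option V × Option V) = (some d'.fst, some d'.snd) :=
        congrArg SimpleGraph.Dart.toProd h
      simp only [Prod.mk.injEq, Option.some.injEq] at h1
      congr 1
      exact SimpleGraph.Dart.ext _ _ (Prod.ext h1.1 h1.2)
    · have h1 : ((some d.fst, some d.snd) : Option V × Option V) = (some t'.1, none) :=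
        congrArg SimpleGraph.Dart.toProd h
      simp at h1
    · have h1 : ((some d.fst, some d.snd) : Option V × Option V) = (none, some t'.1) :=
        congrArg SimpleGraph.Dart.toProd h
      simp at h1
    · have h1 : ((some t.1, none) : Option V × Option V) = (some d'.fst, some d'.snd) :=
        congrArg SimpleGraph.Dart.toProd h
      simp at h1
    · have h1 : ((some t.1, none) : Option V × Option V) = (some t'.1, none) :=
        congrArg SimpleGraph.Dart.toProd h
      simp only [Prod.mk.injEq, Option.some.injEq, and_true] at h1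
      rw [Subtype.ext h1]
    · have h1 : ((some t.1, none) : Option V × Option V) = (none, some t'.1) :=
        congrArg SimpleGraph.Dart.toProd h
      simp at h1
    · have h1 : ((none, some t.1) : Option V × Option V) = (some d'.fst, some d'.snd) :=
        congrArg SimpleGraph.Dart.toProd h
      simp at h1
    · have h1 : ((none, some t.1) : Option V × Option V) = (some t'.1, none) :=
        congrArg SimpleGraph.Dart.toProd h
      simp at h1
    · have h1 : ((none, some t.1) : Option V × Option V) = (none, some t'.1) :=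
        congrArg SimpleGraph.Dart.toProd h
      simp only [Prod.mk.injEq, Option.some.injEq, true_and] at h1
      rw [Subtype.ext h1]
  · rintro ⟨⟨x, y⟩, h⟩
    rcases x with _ | x <;> rcases y with _ | y
    · exact h.elim
    · exact ⟨.inr (.inr ⟨y, h⟩), rfl⟩
    · exact ⟨.inr (.inl ⟨x, h⟩), rfl⟩
    · exact ⟨.inl ⟨(x, y), h⟩, rfl⟩

theorem capG_connected {V : Type} {G : SimpleGraph V} {T : Set V} (hc : G.Connected)
    (hT : T.Nonempty) : (capG G T).Connected := by
  obtain ⟨a, ha⟩ := hT
  let f : G →g capG G T := ⟨some, fun h => h⟩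
  have h1 : ∀ x y : V, (capG G T).Reachable (some x) (some y) := fun x y =>
    (hc.preconnected x y).map f
  have h2 : ∀ x : Option V, (capG G T).Reachable x (some a) := by
    rintro (_ | x)
    · exact SimpleGraph.Adj.reachable (show (capG G T).Adj none (some a) from ha)
    · exact h1 x a
  exact { preconnected := fun x y => (h2 x).trans (h2 y).symm, nonempty := ⟨some a⟩ }

/-- cyclic predecessor in a finite list of times -/
theorem times {T : Type} [Finite T] (N : T → ℕ) (hN : Function.Injective N) (t₀ : T)
    (h0 : N t₀ = 0) (m : ℕ) (hm : ∀ t, N t < m) :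
    ∃ (u : ℕ → T) (ρ : Equiv.Perm T), (∀ t, u (N t) = t) ∧
      (∀ n, (∀ t, N t ≠ n + 1) → u (n + 1) = u n) ∧
      (∀ t, N t = 0 → ρ t = u (m - 1)) ∧ (∀ t, N t ≠ 0 → ρ t = u (N t - 1)) ∧
      (∀ t, N t ≠ 0 → N (ρ t) < N t) := by
  classical
  set P : ℕ → Prop := fun j => ∃ t, N t = j with hP
  have hspec : ∀ n, P (Nat.findGreatest P n) := fun n =>
    Nat.findGreatest_spec (P := P) (Nat.zero_le n) ⟨t₀, h0⟩
  choose u hu using hspec
  have hle : ∀ n, N (u n) ≤ n := fun n => by
    rw [hu]
    exact Nat.findGreatest_le n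
  have hge : ∀ n t, N t ≤ n → N t ≤ N (u n) := fun n t h => by
    rw [hu]
    exact Nat.le_findGreatest h ⟨t, rfl⟩
  set ρ : T → T := fun t => if N t = 0 then u (m - 1) else u (N t - 1) with hρ
  have hρ0 : ∀ t, N t = 0 → ρ t = u (m - 1) := fun t h => if_pos h
  have hρ1 : ∀ t, N t ≠ 0 → ρ t = u (N t - 1) := fun t h => if_neg h
  have hlt : ∀ t, N t ≠ 0 → N (ρ t) < N t := by
    intro t h
    rw [hρ1 t h]
    have := hle (N t - 1)
    omega
  have key : ∀ t t', N t < N t' → ρ t ≠ ρ t' := by
    intro t t' h e
    have h1 : N t' ≠ 0 := by omega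
    have h2 := hlt t' h1
    by_cases h3 : N t = 0
    · rw [← e, hρ0 t h3] at h2
      have h4 := hge (m - 1) t' (by have := hm t'; omega)
      omega
    · have h4 := hlt t h3
      rw [e, hρ1 t' h1] at h4
      have h5 := hge (N t' - 1) t (by omega)
      omega
  have hinj : Function.Injective ρ := by
    intro t t' h
    rcases lt_trichotomy (N t) (N t') with h1 | h1 | h1
    · exact absurd h (key t t' h1)
    · exact hN h1
    · exact absurd h.symm (key t' t h1)
  refine ⟨u, Equiv.ofBijective ρ (Finite.injective_iff_bijective.1 hinj), ?_, ?_, hρ0, hρ1, hlt⟩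
  · intro t
    apply hN
    exact le_antisymm (hle _) (hge _ _ le_rfl)
  · intro n h
    apply hN
    rw [hu, hu]
    exact Nat.findGreatest_of_not (by rintro ⟨t, ht⟩; exact h t ht)

theorem rowCap : RowCap := by
  classical
  intro V _ G σ d₀ T hG hσ hTn hT
  have hc : (capG G T).Connected := capG_connected hG hTn
  set φ := faceNext σ with hφ
  have hDart : Finite G.Dart := finite_dart
  have hφa : ∀ d, φ d = σ d.symm := fun _ => rfl
  obtain ⟨a₀, ha₀⟩ := hTn
  obtain ⟨d₁, hd₁, hd₁f⟩ := hT ha₀
  set t₀ : T := ⟨a₀, ha₀⟩ with ht₀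
  -- the walk along the face
  set w : ℕ → G.Dart := fun n => (φ ^ n) d₁ with hw
  have hws : ∀ n, φ (w n) = w (n + 1) := fun n => by
    show φ ((φ ^ n) d₁) = (φ ^ (n + 1)) d₁
    rw [pow_succ', Equiv.Perm.mul_apply]
  have hwc : ∀ n, φ.SameCycle d₁ (w n) := fun n => ⟨(n : ℤ), by rw [zpow_natCast]⟩
  set m := Function.minimalPeriod φ d₁ with hm
  have hwit : ∀ n, w n = φ^[n] d₁ := fun n => by
    rw [hw]
    exact congrFun (Equiv.Perm.iterate_eq_pow φ n).symm d₁
  have hmpos : 0 < m := by
    apply Function.minimalPeriod_pos_of_mem_periodicPts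
    exact Function.Injective.mem_periodicPts φ.injective d₁
  have hwm : w m = d₁ := by
    rw [hwit]
    exact Function.iterate_minimalPeriod
  have hwmod : ∀ n, w (n % m) = w n := fun n => by
    rw [hwit, hwit]
    exact Function.iterate_mod_minimalPeriod_eq
  have hwinj : ∀ i j, i < m → j < m → w i = w j → i = j := by
    intro i j hi hj h
    rw [hwit, hwit] at h
    exact Function.iterate_injOn_Iio_minimalPeriod hi hj h
  have hwex : ∀ d, φ.SameCycle d₁ d → ∃ i, i < m ∧ w i = d := by
    intro d h
    obtain ⟨n, hn⟩ := exists_pow_face h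
    exact ⟨n % m, Nat.mod_lt _ hmpos, by rw [hwmod]; exact hn⟩
  -- first visits
  have hvis : ∀ t : T, ∃ n, (w n).fst = t.1 := by
    intro t
    obtain ⟨d, h1, h2⟩ := hT t.2
    obtain ⟨i, _, h3⟩ := hwex d (hd₁.symm.trans h1)
    exact ⟨i, by rw [h3]; exact h2⟩
  set N : T → ℕ := fun t => Nat.find (hvis t) with hN
  have hNw : ∀ t : T, (w (N t)).fst = t.1 := fun t => Nat.find_spec (hvis t)
  have hNmin : ∀ (t : T) n, (w n).fst = t.1 → N t ≤ n := fun t n h => Nat.find_min' (hvis t) h
  have hNinj : Function.Injective N := by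
    intro t t' h
    apply Subtype.ext
    rw [← hNw, ← hNw, h]
  have hN0 : N t₀ = 0 := Nat.le_zero.1 (hNmin t₀ 0 hd₁f)
  have hNm : ∀ t, N t < m := by
    intro t
    have h1 := hNmin t (N t % m) (by rw [hwmod]; exact hNw t)
    exact lt_of_le_of_lt h1 (Nat.mod_lt _ hmpos)
  obtain ⟨u, ρ, u1, u2, ρ0, ρ1, ρlt⟩ := times N hNinj t₀ hN0 m hNm
  have hN0' : ∀ t, N t = 0 → t = t₀ := fun t h => hNinj (h.trans hN0.symm)
  -- the corners
  set x : T → G.Dart := fun t => w (N t) with hx
  have hxf : ∀ t, (x t).fst = t.1 := hNw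
  set y : T → G.Dart := fun t => σ⁻¹ (x t) with hy
  have hσy : ∀ t, σ (y t) = x t := fun t => Equiv.apply_symm_apply _ _
  have hyf : ∀ t, (y t).fst = t.1 := fun t => by rw [← hσ.fst (y t), hσy]; exact hxf t
  have hyinj : ∀ t t', y t = y t' → t = t' := fun t t' h =>
    Subtype.ext (by rw [← hyf, ← hyf, h])
  have hxy : ∀ d t, σ d = x t → d = y t := fun d t h => σ.injective (by rw [h, hσy])
  -- the rotation
  set π₀ : G.Dart ⊕ (T ⊕ T) → G.Dart ⊕ (T ⊕ T) := fun z =>
    match z with
    | .inl d => if h : ∃ t, d = y t then .inr (.inl h.choose) else .inl (σ d)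
    | .inr (.inl t) => .inl (x t)
    | .inr (.inr t) => .inr (.inr (ρ t)) with hπ₀
  have py : ∀ t, π₀ (.inl (y t)) = .inr (.inl t) := by
    intro t
    have h : ∃ t', y t = y t' := ⟨t, rfl⟩
    show (if h : ∃ t', y t = y t' then (.inr (.inl h.choose) : G.Dart ⊕ (T ⊕ T)) else
      .inl (σ (y t))) = _
    rw [dif_pos h]
    rw [← hyinj _ _ h.choose_spec]
  have po : ∀ d, (∀ t, d ≠ y t) → π₀ (.inl d) = .inl (σ d) := by
    intro d h
    show (if h : ∃ t', d = y t' then (.inr (.inl h.choose) : G.Dart ⊕ (T ⊕ T)) else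
      .inl (σ d)) = _
    rw [dif_neg (by rintro ⟨t, ht⟩; exact h t ht)]
  have px : ∀ t, π₀ (.inr (.inl t)) = .inl (x t) := fun _ => rfl
  have pρ : ∀ t, π₀ (.inr (.inr t)) = .inr (.inr (ρ t)) := fun _ => rfl
  have hπinj : Function.Injective π₀ := by
    have hcase : ∀ d, (∃ t, d = y t) ∨ (∀ t, d ≠ y t) := by
      intro d
      by_cases h : ∃ t, d = y t
      · exact Or.inl h
      · exact Or.inr fun t ht => h ⟨t, ht⟩
    rintro (d | t | t) (d' | t' | t') h
    · rcases hcase d with ⟨t, rfl⟩ | h1 <;> rcases hcase d' with ⟨t', rfl⟩ | h2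
      · rw [py, py] at h
        simp only [Sum.inr.injEq, Sum.inl.injEq] at h
        rw [h]
      · rw [py, po _ h2] at h
        simp at h
      · rw [py, po _ h1] at h
        simp at h
      · rw [po _ h1, po _ h2] at h
        simp only [Sum.inl.injEq] at h
        rw [σ.injective h]
    · exfalso
      rcases hcase d with ⟨t, rfl⟩ | h1
      · rw [py, px] at h
        simp at h
      · rw [po _ h1, px] at h
        simp only [Sum.inl.injEq] at h
        exact h1 t' (hxy _ _ h)
    · exfalso
      rcases hcase d with ⟨t, rfl⟩ | h1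
      · rw [py, pρ] at h
        simp at h
      · rw [po _ h1, pρ] at h
        simp at h
    · exfalso
      rcases hcase d' with ⟨t', rfl⟩ | h1
      · rw [py, px] at h
        simp at h
      · rw [po _ h1, px] at h
        simp only [Sum.inl.injEq] at h
        exact h1 t (hxy _ _ h.symm)
    · rw [px, px] at h
      simp only [Sum.inl.injEq] at h
      congr 2
      apply Subtype.ext
      rw [← hxf, ← hxf, h]
    · rw [px, pρ] at h
      simp at h
    · exfalso
      rcases hcase d' with ⟨t', rfl⟩ | h1
      · rw [py, pρ] at h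
        simp at h
      · rw [po _ h1, pρ] at h
        simp at h
    · rw [px, pρ] at h
      simp at h
    · rw [pρ, pρ] at h
      simp only [Sum.inr.injEq] at h
      rw [ρ.injective h]
  set π : Equiv.Perm (G.Dart ⊕ (T ⊕ T)) :=
    Equiv.ofBijective π₀ (Finite.injective_iff_bijective.1 hπinj) with hπ
  have hπa : ∀ z, π z = π₀ z := fun _ => rfl
  set G' := capG G T with hG'
  set E : G.Dart ⊕ (T ⊕ T) ≃ G'.Dart := Equiv.ofBijective _ (toC_bij G T) with hE
  set σ' : Equiv.Perm G'.Dart := (E.symm.trans π).trans E with hσ'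
  set rv : G.Dart ⊕ (T ⊕ T) → G.Dart ⊕ (T ⊕ T) := fun z =>
    match z with
    | .inl d => .inl d.symm
    | .inr (.inl t) => .inr (.inr t)
    | .inr (.inr t) => .inr (.inl t) with hrv
  have hσe : ∀ z, σ' (E z) = E (π₀ z) := by
    intro z
    show E (π (E.symm (E z))) = _
    rw [E.symm_apply_apply]
    rfl
  have efst : ∀ z, (E z).fst = (toC G T z).fst := fun z => rfl
  have hface : ∀ z, faceNext σ' (E z) = E (π₀ (rv z)) := by
    intro z
    show σ' ((E z).symm) = _
    have : (E z).symm = E (rv z) := by
      rcases z with d | t | t <;> rfl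
    rw [this, hσe]
  refine ⟨σ', SurfMap.plane hc ⟨?_, ?_, ?_⟩⟩
  · -- vertices are preserved
    intro d
    obtain ⟨z, rfl⟩ := E.surjective d
    rw [hσe, efst, efst]
    rcases z with d | t | t
    · by_cases h : ∃ t, d = y t
      · obtain ⟨t, rfl⟩ := h
        rw [py]
        show some t.1 = some (y t).fst
        rw [hyf]
      · rw [po _ fun t ht => h ⟨t, ht⟩]
        show some (σ d).fst = some d.fst
        rw [hσ.fst]
    · rw [px]
      show some (x t).fst = some t.1
      rw [hxf]
    · rw [pρ]
      rfl
  · -- cyclic at every vertex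
    set S : G.Dart ⊕ (T ⊕ T) → G.Dart ⊕ (T ⊕ T) → Prop :=
      fun z z' => σ'.SameCycle (E z) (E z') with hS
    have step : ∀ z, S z (π₀ z) := fun z => ⟨1, by rw [zpow_one, hσe]⟩
    have Ss : ∀ z z', S z z' → S z' z := fun z z' h => h.symm
    have St : ∀ z z' z'', S z z' → S z' z'' → S z z'' := fun z z' z'' h h' => h.trans h'
    have Sr : ∀ z, S z z := fun z => Equiv.Perm.SameCycle.refl _ _
    have tx : ∀ t, S (.inr (.inl t)) (.inl (x t)) := fun t => step (.inr (.inl t))
    have hold : ∀ d, S (.inl d) (.inl (σ d)) := by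
      intro d
      by_cases h : ∃ t, d = y t
      · obtain ⟨t, rfl⟩ := h
        have h1 := step (.inl (y t))
        rw [py] at h1
        rw [hσy]
        exact St _ _ _ h1 (tx t)
      · have h1 := step (.inl d)
        rwa [po _ fun t ht => h ⟨t, ht⟩] at h1
    have hcyc : ∀ {d d' : G.Dart}, σ.SameCycle d d' → S (.inl d) (.inl d') :=
      fun h => z_rel_cycle (S := fun d d' => S (.inl d) (.inl d')) (fun _ => Sr _)
        (fun _ _ => Ss _ _) (fun _ _ _ => St _ _ _) hold h
    have hnew : ∀ n t, N t = n → S (.inr (.inr t)) (.inr (.inr t₀)) := by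
      intro n
      induction n using Nat.strong_induction_on with
      | _ n ih =>
        intro t ht
        by_cases h0 : N t = 0
        · rw [hN0' t h0]
        · have h1 := ρlt t h0
          exact St _ _ _ (step (.inr (.inr t))) (ih (N (ρ t)) (ht ▸ h1) (ρ t) rfl)
    have r1 : ∀ z v, (toC G T z).fst = some v → ∃ d : G.Dart, d.fst = v ∧ S z (.inl d) := by
      rintro (d | t | t) v h
      · exact ⟨d, Option.some.inj h, Sr _⟩
      · exact ⟨x t, (hxf t).trans (Option.some.inj h), tx t⟩
      · exact absurd h (by simp [toC])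
    have r2 : ∀ z, (toC G T z).fst = none → S z (.inr (.inr t₀)) := by
      rintro (d | t | t) h
      · exact absurd h (by simp [toC])
      · exact absurd h (by simp [toC])
      · exact hnew _ t rfl
    intro d d' h
    obtain ⟨z, rfl⟩ := E.surjective d
    obtain ⟨z', rfl⟩ := E.surjective d'
    rw [efst, efst] at h
    show S z z'
    rcases hz : (toC G T z).fst with _ | v
    · exact St _ _ _ (r2 z hz) (Ss _ _ (r2 z' (h ▸ hz)))
    · obtain ⟨d, hd, h1⟩ := r1 z v hz
      obtain ⟨d', hd', h2⟩ := r1 z' v (h ▸ hz)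
      exact St _ _ _ h1 (St _ _ _ (hcyc (hσ.cyc d d' (hd.trans hd'.symm))) (Ss _ _ h2))
  · -- Euler's formula
    set F := Quotient (Equiv.Perm.SameCycle.setoid (faceNext σ)) with hF
    have hst : ∀ d : G.Dart, (Quotient.mk _ (φ d) : F) = Quotient.mk _ d := fun d =>
      Quotient.sound ⟨-1, by simp [hφ]⟩
    -- the position on the face
    have hidx : ∃ idx : G.Dart → ℕ, ∀ d, φ.SameCycle d₁ d → idx d < m ∧ w (idx d) = d := by
      refine ⟨fun d => if h : φ.SameCycle d₁ d then (hwex d h).choose else 0, fun d h => ?_⟩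
      simp only [dif_pos h]
      exact (hwex d h).choose_spec
    obtain ⟨idx, hidx⟩ := hidx
    have hidw : ∀ i, i < m → idx (w i) = i := by
      intro i hi
      obtain ⟨h1, h2⟩ := hidx (w i) (hwc i)
      exact hwinj _ _ h1 hi h2
    set c : G.Dart ⊕ (T ⊕ T) → F ⊕ T := fun z =>
      match z with
      | .inl d => if φ.SameCycle d₁ d then .inr (u (idx d)) else .inl (Quotient.mk _ d)
      | .inr (.inl t) => .inr (ρ t)
      | .inr (.inr t) => .inr t with hcdef
    have c1 : ∀ d, φ.SameCycle d₁ d → c (.inl d) = .inr (u (idx d)) := fun d h => if_pos h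
    have c2 : ∀ d, ¬ φ.SameCycle d₁ d → c (.inl d) = .inl (Quotient.mk _ d) := fun d h =>
      if_neg h
    have cw : ∀ i, i < m → c (.inl (w i)) = .inr (u i) := fun i hi => by
      rw [c1 _ (hwc i), hidw i hi]
    have cx : ∀ t, c (.inl (x t)) = .inr t := fun t => by
      rw [cw _ (hNm t), u1]
    have hinv : ∀ z, c (π₀ (rv z)) = c z := by
      rintro (d | t | t)
      · show c (π₀ (.inl d.symm)) = c (.inl d)
        by_cases h : ∃ t, d.symm = y t
        · obtain ⟨t, ht⟩ := h
          have h1 : φ d = x t := by rw [hφa, ht, hσy]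
          rw [ht, py]
          show (.inr (ρ t) : F ⊕ T) = _
          have h2 : φ.SameCycle d₁ d := by
            rw [← Equiv.Perm.sameCycle_apply_right, h1]
            exact hwc _
          obtain ⟨h3, h4⟩ := hidx d h2
          rw [c1 _ h2]
          congr 1
          have h5 : w (idx d + 1) = w (N t) := by rw [← hws, h4, h1]
          rcases Nat.lt_or_ge (idx d + 1) m with h6 | h6
          · have h7 := hwinj _ _ h6 (hNm t) h5
            rw [ρ1 t (by omega), ← h7]
            rfl
          · have h7 : idx d + 1 = m := by omega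
            rw [h7, hwm] at h5
            have h8 := hwinj 0 (N t) hmpos (hNm t) h5
            rw [ρ0 t h8.symm, ← h7]
            rfl
        · have h' : ∀ t, d.symm ≠ y t := fun t ht => h ⟨t, ht⟩
          rw [po _ h']
          show c (.inl (φ d)) = _
          by_cases h2 : φ.SameCycle d₁ d
          · obtain ⟨h3, h4⟩ := hidx d h2
            have h5 : φ d = w (idx d + 1) := by rw [← hws, h4]
            have h6 : ∀ t, φ d ≠ x t := fun t ht => h' t (hxy _ _ ht)
            rcases Nat.lt_or_ge (idx d + 1) m with h7 | h7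
            · rw [h5, cw _ h7, c1 _ h2, u2]
              intro t ht
              apply h6 t
              rw [h5, ← ht]
            · exfalso
              have h8 : idx d + 1 = m := by omega
              apply h6 t₀
              rw [h5, h8, hwm, hx]
              show d₁ = w (N t₀)
              rw [hN0]
              rfl
          · have h3 : ¬ φ.SameCycle d₁ (φ d) := fun h => h2 (Equiv.Perm.sameCycle_apply_right.1 h)
            rw [c2 _ h2, c2 _ h3, hst]
      · show c (π₀ (.inr (.inr t))) = _
        rw [pρ]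
      · show c (π₀ (.inr (.inl t))) = _
        rw [px, cx]
    set F' := Quotient (Equiv.Perm.SameCycle.setoid (faceNext σ')) with hF'
    have hDart' : Finite G'.Dart := finite_dart
    have hinv' : ∀ d : G'.Dart, c (E.symm (faceNext σ' d)) = c (E.symm d) := by
      intro d
      obtain ⟨z, rfl⟩ := E.surjective d
      rw [hface, E.symm_apply_apply, E.symm_apply_apply, hinv]
    let C : F' ⊕ Unit → F ⊕ T := fun z =>
      match z with
      | .inl f => Quotient.lift (fun d => c (E.symm d)) (fun d d' h =>
          z_const_cycle (c := fun d => c (E.symm d)) hinv' h) f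
      | .inr _ => .inl (Quotient.mk _ d₁)
    have hC : Function.Surjective C := by
      rintro (f | t)
      · induction f using Quotient.inductionOn with
        | h d =>
          by_cases h1 : φ.SameCycle d₁ d
          · refine ⟨.inr (), ?_⟩
            show (Sum.inl (Quotient.mk _ d₁) : F ⊕ T) = _
            congr 1
            exact Quotient.sound h1
          · refine ⟨.inl (Quotient.mk _ (E (.inl d))), ?_⟩
            show c (E.symm (E (.inl d))) = _
            rw [E.symm_apply_apply, c2 _ h1]
      · refine ⟨.inl (Quotient.mk _ (E (.inr (.inr t)))), ?_⟩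
        show c (E.symm (E (.inr (.inr t)))) = _
        rw [E.symm_apply_apply]
    have hFF : Nat.card F + Nat.card T ≤ Nat.card F' + 1 := by
      have h1 := Nat.card_le_card_of_surjective C hC
      rw [Nat.card_sum, Nat.card_sum] at h1
      simpa using h1
    have hV : Nat.card (Option V) = Nat.card V + 1 := by
      rw [Finite.card_option]
    have hE' : Nat.card G'.edgeSet = Nat.card G.edgeSet + Nat.card T := by
      have h1 := card_dart_nat G
      have h2 := card_dart_nat G'
      have h3 : Nat.card G'.Dart = Nat.card G.Dart + (Nat.card T + Nat.card T) := by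
        rw [← Nat.card_congr E, Nat.card_sum, Nat.card_sum]
      omega
    have h : Nat.card V + Nat.card F = Nat.card G.edgeSet + 2 := hσ.euler
    show Nat.card G'.edgeSet + 2 ≤ Nat.card (Option V) + Nat.card F' + 0
    rw [hV, hE']
    omega

end Vale.Agent.P235.H341W
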